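import Mathlib
import Vale.Agent.P080.Defs
import Vale.Agent.P080.Ball

namespace Vale.Agent.Results.P080.SeparableC1Third

open Vale.Agent.P080

theorem result (d : ℕ) (b : OrthonormalBasis (Fin d) ℝ (EuclideanSpace ℝ (Fin d)))
    (f : Fin d → ℝ → ℝ) (u : EuclideanSpace ℝ (Fin d) → ℝ)
    (Ω : Set (EuclideanSpace ℝ (Fin d))) (hΩ : IsOpen Ω) (hu : IsInfHarmonicOn u Ω)
    (hsep : ∀ x ∈ Ω, u x = ∑ i, f i (inner ℝ (b i) x)) :
    ContDiffOn ℝ 1 u Ω ∧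
    ∀ (z : EuclideanSpace ℝ (Fin d)) (R osc : ℝ), 0 < R → Metric.ball z R ⊆ Ω →
      (∀ x ∈ Metric.ball z R, ∀ y ∈ Metric.ball z R, u x - u y ≤ osc) →
      ∀ x ∈ Metric.ball z (R / 2), ∀ y ∈ Metric.ball z (R / 2),
        ‖gradient u x - gradient u y‖ ≤
          256 * (d : ℝ) ^ 4 * osc / R ^ (4 / 3 : ℝ) * ‖x - y‖ ^ (1 / 3 : ℝ) := by
  refine ⟨contDiffOn_of_sep hΩ hu hsep, ?_⟩
  intro z R osc hR hball hosc
  exact ball_main hR (hu.mono hball) (fun x hx => hsep x (hball hx)) hosc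

end Vale.Agent.Results.P080.SeparableC1Third
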